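import Mathlib
import Vale.Agent.Lib.P080.Defs
import Vale.Agent.Lib.P080.Sep4

namespace Vale.Agent.Results.P080.A_separable

open Vale.Agent.Lib.P080

/-- Additively separated infinity-harmonic functions on a box: the profiles are exactly the
solutions of `(f i ') ^ 3 = 3 c_i t + b_i` with `∑ c_i = 0`, and all of them are `C^1` with the
interior `C^{1,1/3}` estimate in terms of the oscillation on a ball, with a constant depending
only on the dimension. -/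
theorem result {d : ℕ} (I : Fin d → Set ℝ) (f : Fin d → ℝ → ℝ)
    (hIo : ∀ i, IsOpen (I i)) (hIc : ∀ i, (I i).OrdConnected) (hIn : ∀ i, (I i).Nonempty) :
    (IsInfHarmonic (fun x : EuclideanSpace ℝ (Fin d) => ∑ i, f i (x i)) {x | ∀ i, x i ∈ I i} ↔
      ∃ c b : Fin d → ℝ, ∑ i, c i = 0 ∧
        ∀ i, ∀ t ∈ I i, DifferentiableAt ℝ (f i) t ∧ (deriv (f i) t) ^ 3 = 3 * c i * t + b i) ∧
    (IsInfHarmonic (fun x : EuclideanSpace ℝ (Fin d) => ∑ i, f i (x i)) {x | ∀ i, x i ∈ I i} →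
      ContDiffOn ℝ 1 (fun x : EuclideanSpace ℝ (Fin d) => ∑ i, f i (x i)) {x | ∀ i, x i ∈ I i} ∧
      ∀ (x₀ : EuclideanSpace ℝ (Fin d)) (R M : ℝ), 0 < R →
        Metric.ball x₀ R ⊆ {x | ∀ i, x i ∈ I i} →
        (∀ y ∈ Metric.ball x₀ R, ∀ z ∈ Metric.ball x₀ R,
          (∑ i, f i (y i)) - (∑ i, f i (z i)) ≤ M) →
        ∀ x y : EuclideanSpace ℝ (Fin d), (∀ i, x i ∈ I i) → (∀ i, y i ∈ I i) →
          ‖gradient (fun x : EuclideanSpace ℝ (Fin d) => ∑ i, f i (x i)) x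
              - gradient (fun x : EuclideanSpace ℝ (Fin d) => ∑ i, f i (x i)) y‖ ^ 3
            ≤ 128 * (d : ℝ) ^ 2 * (M / R) ^ 3 * (‖x - y‖ / R)) := by
  refine ⟨⟨profiles_of_isInfHarmonic hIo hIc hIn, ?_⟩, fun h => ?_⟩
  · rintro ⟨c, b, hsum, hf⟩
    exact isInfHarmonic_of_profiles hIo hsum hf
  · obtain ⟨c, b, _, hf⟩ := profiles_of_isInfHarmonic hIo hIc hIn h
    refine ⟨sep_contDiffOn hIo hf, ?_⟩
    intro x₀ R M hR hball hM x y hx hy
    exact sep_estimate hf hR hball hM hx hy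

end Vale.Agent.Results.P080.A_separable
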